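import Mathlib

/-!
# The full spectral gap of the Johnson graph (problem P335, graph case, inequality (J2))

`D` is a finite set, `p` a number; the states are the `p`-element subsets of `D`; two states
are adjacent when they differ by exchanging one element.  For a function `h` on the states with
zero sum, `card D` times the sum of squares of `h` is at most the edge energy of `h`
(`johnson_gap_full`, stated with ordered pairs, hence with the factor `2`).

Proof: an eigenvector of the Laplacian with eigenvalue below `card D` is constant.  Take an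
adjacent pair `x`, `y = x - a + b` maximising `v x - v y`; the transposition `(a b)` maps the
neighbours of `x` onto the neighbours of `y`, moves `y` to `x`, fixes the `card D - 2`
neighbours `x - a + b'`, `x - a' + b`, and moves every other neighbour to one of its own
neighbours.  Comparing the two Laplacian sums gives `μ (v x - v y) ≥ card D * (v x - v y)`.
-/

namespace Vale.Agent.Lib.P335.H3

open Finset Matrix

section Spectral

variable {Ω : Type*} [Fintype Ω] [DecidableEq Ω]

/-- If every eigenvector of the symmetric matrix `A` with eigenvalue below `c` is orthogonal to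
`f`, then `c ⟨f, f⟩ ≤ ⟨f, A f⟩`. -/
theorem quad_ge_of_eigen (A : Matrix Ω Ω ℝ) (hA : A.IsHermitian) (c : ℝ) (f : Ω → ℝ)
    (hev : ∀ (μ : ℝ) (g : Ω → ℝ), μ < c → A *ᵥ g = μ • g → g ⬝ᵥ f = 0) :
    c * (f ⬝ᵥ f) ≤ f ⬝ᵥ (A *ᵥ f) := by
  classical
  set b := hA.eigenvectorBasis with hb
  set ev := hA.eigenvalues with hev'
  set a : Ω → ℝ := fun i => (⇑(b i) : Ω → ℝ) ⬝ᵥ f with ha
  have hexp : f = ∑ i, a i • (⇑(b i) : Ω → ℝ) := by
    have h := b.sum_repr (WithLp.toLp 2 f)
    have h2 : (∑ i, b.repr (WithLp.toLp 2 f) i • b i : EuclideanSpace ℝ Ω) = WithLp.toLp 2 f := h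
    have h3 := congrArg (fun v : EuclideanSpace ℝ Ω => (⇑v : Ω → ℝ)) h2
    simp only at h3
    funext x
    have h4 := congrFun h3 x
    simp only [WithLp.ofLp_sum, WithLp.ofLp_smul, Finset.sum_apply, Pi.smul_apply, smul_eq_mul,
      OrthonormalBasis.repr_apply_apply] at h4
    rw [← h4]
    simp only [Finset.sum_apply, Pi.smul_apply, smul_eq_mul]
    refine Finset.sum_congr rfl fun i _ => ?_
    congr 1
    simp [ha, EuclideanSpace.inner_eq_star_dotProduct, dotProduct_comm]
  have hortho : ∀ i, f ⬝ᵥ (⇑(b i) : Ω → ℝ) = a i := fun i => by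
    simp [ha, dotProduct_comm]
  have hAf : A *ᵥ f = ∑ i, (a i * ev i) • (⇑(b i) : Ω → ℝ) := by
    conv_lhs => rw [hexp]
    rw [Matrix.mulVec_sum]
    refine Finset.sum_congr rfl fun i _ => ?_
    rw [Matrix.mulVec_smul, hA.mulVec_eigenvectorBasis i, smul_smul]
  have h1 : f ⬝ᵥ (A *ᵥ f) = ∑ i, ev i * a i ^ 2 := by
    rw [hAf, dotProduct_sum]
    refine Finset.sum_congr rfl fun i _ => ?_
    rw [dotProduct_smul, hortho i, smul_eq_mul]; ring
  have h2 : f ⬝ᵥ f = ∑ i, a i ^ 2 := by
    have e : f ⬝ᵥ f = f ⬝ᵥ (∑ i, a i • (⇑(b i) : Ω → ℝ)) := by rw [← hexp]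
    rw [e, dotProduct_sum]
    refine Finset.sum_congr rfl fun i _ => ?_
    rw [dotProduct_smul, hortho i, smul_eq_mul]; ring
  rw [h1, h2, Finset.mul_sum]
  refine Finset.sum_le_sum fun i _ => ?_
  by_cases hi : ev i < c
  · have hz : a i = 0 := hev (ev i) (⇑(b i)) hi (hA.mulVec_eigenvectorBasis i)
    rw [hz]; simp
  · have : c ≤ ev i := not_lt.mp hi
    exact mul_le_mul_of_nonneg_right this (sq_nonneg _)

end Spectral

section Johnson

variable {α : Type*} [DecidableEq α]

/-- The exchange: remove `a`, add `b`. -/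
def nb (T : Finset α) (a b : α) : Finset α := insert b (T.erase a)

/-- The image of a set under the transposition `(a b)`. -/
def swapSet (a b : α) (T : Finset α) : Finset α := T.map (Equiv.swap a b).toEmbedding

theorem mem_swapSet (a b : α) (T : Finset α) (j : α) :
    j ∈ swapSet a b T ↔ Equiv.swap a b j ∈ T := by
  unfold swapSet
  rw [Finset.mem_map_equiv, Equiv.symm_swap]

theorem mem_nb (T : Finset α) (a b j : α) : j ∈ nb T a b ↔ j = b ∨ (j ≠ a ∧ j ∈ T) := by
  unfold nb
  rw [Finset.mem_insert, Finset.mem_erase]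

theorem swap_eq_iff (a b j u : α) : Equiv.swap a b j = u ↔ j = Equiv.swap a b u := by
  constructor
  · intro h
    rw [← h, Equiv.swap_apply_self]
  · intro h
    rw [h, Equiv.swap_apply_self]

theorem swapSet_swapSet (a b : α) (T : Finset α) : swapSet a b (swapSet a b T) = T := by
  ext j
  rw [mem_swapSet, mem_swapSet, Equiv.swap_apply_self]

theorem card_swapSet (a b : α) (T : Finset α) : (swapSet a b T).card = T.card := by
  unfold swapSet
  rw [Finset.card_map]

theorem swapSet_nb_self {T : Finset α} {a b : α} (ha : a ∈ T) (hb : b ∉ T) :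
    swapSet a b T = nb T a b := by
  ext j
  rw [mem_swapSet, mem_nb]
  by_cases hja : j = a
  · subst hja
    rw [Equiv.swap_apply_left]
    constructor
    · intro h
      exact absurd h hb
    · rintro (h | ⟨h, _⟩)
      · exact absurd (h ▸ ha) hb
      · exact absurd rfl h
  · by_cases hjb : j = b
    · subst hjb
      rw [Equiv.swap_apply_right]
      exact ⟨fun _ => Or.inl rfl, fun _ => ha⟩
    · rw [Equiv.swap_apply_of_ne_of_ne hja hjb]
      constructor
      · intro h
        exact Or.inr ⟨hja, h⟩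
      · rintro (h | ⟨_, h⟩)
        · exact absurd h hjb
        · exact h

theorem swapSet_fixed {T : Finset α} {a b : α} (h : a ∈ T ↔ b ∈ T) : swapSet a b T = T := by
  ext j
  rw [mem_swapSet]
  by_cases hja : j = a
  · subst hja
    rw [Equiv.swap_apply_left]
    exact h.symm
  · by_cases hjb : j = b
    · subst hjb
      rw [Equiv.swap_apply_right]
      exact h
    · rw [Equiv.swap_apply_of_ne_of_ne hja hjb]

theorem swapSet_nb (a b : α) (T : Finset α) (a' b' : α) :
    swapSet a b (nb T a' b') = nb (swapSet a b T) (Equiv.swap a b a') (Equiv.swap a b b') := by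
  ext j
  rw [mem_swapSet, mem_nb, mem_nb, mem_swapSet, swap_eq_iff, Ne, swap_eq_iff]

theorem swap_mem_iff {D : Finset α} {a b : α} (ha : a ∈ D) (hb : b ∈ D) (j : α) :
    Equiv.swap a b j ∈ D ↔ j ∈ D := by
  by_cases hja : j = a
  · subst hja
    rw [Equiv.swap_apply_left]
    exact ⟨fun _ => ha, fun _ => hb⟩
  · by_cases hjb : j = b
    · subst hjb
      rw [Equiv.swap_apply_right]
      exact ⟨fun _ => hb, fun _ => ha⟩
    · rw [Equiv.swap_apply_of_ne_of_ne hja hjb]

theorem nb_mem {D : Finset α} {p : ℕ} {T : Finset α} (hT : T ∈ D.powersetCard p) {a b : α}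
    (ha : a ∈ T) (hb : b ∈ D \ T) : nb T a b ∈ D.powersetCard p := by
  rw [Finset.mem_powersetCard] at hT ⊢
  rw [Finset.mem_sdiff] at hb
  constructor
  · intro j hj
    rw [mem_nb] at hj
    rcases hj with h | ⟨_, h⟩
    · rw [h]
      exact hb.1
    · exact hT.1 h
  · unfold nb
    rw [Finset.card_insert_of_notMem (fun h => hb.2 (Finset.mem_of_mem_erase h)),
      Finset.card_erase_of_mem ha, hT.2]
    have : 0 < T.card := Finset.card_pos.2 ⟨a, ha⟩
    omega

theorem sdiff_nb {T : Finset α} {a b : α} (ha : a ∈ T) (hb : b ∉ T) : T \ nb T a b = {a} := by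
  ext j
  rw [Finset.mem_sdiff, mem_nb, Finset.mem_singleton]
  constructor
  · rintro ⟨h1, h2⟩
    by_contra h3
    exact h2 (Or.inr ⟨h3, h1⟩)
  · intro h
    subst h
    refine ⟨ha, ?_⟩
    rintro (h | ⟨h, _⟩)
    · exact hb (h ▸ ha)
    · exact h rfl

theorem nb_nb_cancel {T : Finset α} {a b : α} (ha : a ∈ T) (hb : b ∉ T) :
    nb (nb T a b) b a = T := by
  have hab : a ≠ b := fun h => hb (h ▸ ha)
  ext j
  rw [mem_nb, mem_nb]
  constructor
  · rintro (h | ⟨h1, h2 | ⟨_, h3⟩⟩)
    · rw [h]
      exact ha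
    · exact absurd h2 h1
    · exact h3
  · intro h
    by_cases hja : j = a
    · exact Or.inl hja
    · refine Or.inr ⟨?_, Or.inr ⟨hja, h⟩⟩
      intro hjb
      exact hb (hjb ▸ h)

/-- Adjacent states are exchanges. -/
theorem eq_nb_of_adj {D : Finset α} {p : ℕ} {T T' : Finset α} (hT : T ∈ D.powersetCard p)
    (hT' : T' ∈ D.powersetCard p) (h : (T \ T').card = 1) :
    ∃ a ∈ T, ∃ b ∈ D \ T, T' = nb T a b := by
  rw [Finset.mem_powersetCard] at hT hT'
  have h' : (T' \ T).card = 1 := by
    rw [← h]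
    exact Finset.card_sdiff_comm (by rw [hT.2, hT'.2])
  obtain ⟨a, ha⟩ := Finset.card_eq_one.1 h
  obtain ⟨b, hb⟩ := Finset.card_eq_one.1 h'
  have ha' : a ∈ T \ T' := by
    rw [ha]
    exact Finset.mem_singleton_self a
  have hb' : b ∈ T' \ T := by
    rw [hb]
    exact Finset.mem_singleton_self b
  rw [Finset.mem_sdiff] at ha' hb'
  refine ⟨a, ha'.1, b, Finset.mem_sdiff.2 ⟨hT'.1 hb'.1, hb'.2⟩, ?_⟩
  ext j
  rw [mem_nb]
  constructor
  · intro hj
    by_cases hjT : j ∈ T
    · refine Or.inr ⟨?_, hjT⟩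
      intro hja
      exact ha'.2 (hja ▸ hj)
    · left
      have : j ∈ T' \ T := Finset.mem_sdiff.2 ⟨hj, hjT⟩
      rw [hb] at this
      exact Finset.mem_singleton.1 this
  · rintro (hj | ⟨hj1, hj2⟩)
    · rw [hj]
      exact hb'.1
    · by_contra hjT'
      have : j ∈ T \ T' := Finset.mem_sdiff.2 ⟨hj2, hjT'⟩
      rw [ha] at this
      exact hj1 (Finset.mem_singleton.1 this)

/-- The neighbours of a state are parametrised by the exchanged pair. -/
theorem sum_adj_eq {D : Finset α} {p : ℕ} {T : Finset α} (hT : T ∈ D.powersetCard p)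
    (G : Finset α → ℝ) :
    ∑ T' ∈ D.powersetCard p, (if (T \ T').card = 1 then G T' else 0)
      = ∑ a ∈ T, ∑ b ∈ D \ T, G (nb T a b) := by
  rw [← Finset.sum_filter, ← Finset.sum_product']
  symm
  apply Finset.sum_bij (fun ab _ => nb T ab.1 ab.2)
  · intro ab hab
    rw [Finset.mem_product] at hab
    rw [Finset.mem_filter]
    refine ⟨nb_mem hT hab.1 hab.2, ?_⟩
    rw [sdiff_nb hab.1 (Finset.mem_sdiff.1 hab.2).2, Finset.card_singleton]
  · intro ab1 h1 ab2 h2 heq
    rw [Finset.mem_product] at h1 h2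
    have hb1 := (Finset.mem_sdiff.1 h1.2).2
    have hb2 := (Finset.mem_sdiff.1 h2.2).2
    have e1 : ({ab1.1} : Finset α) = {ab2.1} := by
      rw [← sdiff_nb h1.1 hb1, ← sdiff_nb h2.1 hb2, heq]
    have e2 : ab1.1 = ab2.1 := Finset.singleton_injective e1
    have e3 : ab1.2 ∈ nb T ab2.1 ab2.2 := by
      rw [← heq, mem_nb]
      exact Or.inl rfl
    rw [mem_nb] at e3
    have e4 : ab1.2 = ab2.2 := by
      rcases e3 with h | ⟨_, h⟩
      · exact h
      · exact absurd h hb1
    exact Prod.ext e2 e4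
  · intro T' hT'
    rw [Finset.mem_filter] at hT'
    obtain ⟨a, ha, b, hb, hab⟩ := eq_nb_of_adj hT hT'.1 hT'.2
    exact ⟨(a, b), Finset.mem_product.2 ⟨ha, hb⟩, hab.symm⟩
  · intro ab _
    rfl

/-- The curvature step with the exact count: at an exchange `x → x - a + b` maximising the
difference of `V`, the difference of the two Laplacian sums is at least `card D` times it. -/
theorem curvature (D : Finset α) (p : ℕ) (V : Finset α → ℝ) {x : Finset α}
    (hx : x ∈ D.powersetCard p) {a b : α} (ha : a ∈ x) (hb : b ∈ D \ x)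
    (hmax : ∀ T ∈ D.powersetCard p, ∀ a' ∈ T, ∀ b' ∈ D \ T,
      V T - V (nb T a' b') ≤ V x - V (nb x a b)) :
    (D.card : ℝ) * (V x - V (nb x a b))
      ≤ (∑ a' ∈ x, ∑ b' ∈ D \ x, (V x - V (nb x a' b')))
        - ∑ a' ∈ nb x a b, ∑ b' ∈ D \ nb x a b,
            (V (nb x a b) - V (nb (nb x a b) a' b')) := by
  have hxD : x ⊆ D := (Finset.mem_powersetCard.1 hx).1
  have hbx : b ∉ x := (Finset.mem_sdiff.1 hb).2
  have hbD : b ∈ D := (Finset.mem_sdiff.1 hb).1
  have haD : a ∈ D := hxD ha
  have hab : a ≠ b := fun h => hbx (h ▸ ha)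
  have hy : nb x a b ∈ D.powersetCard p := nb_mem hx ha hb
  have hsw : swapSet a b x = nb x a b := swapSet_nb_self ha hbx
  have hM : 0 ≤ V x - V (nb x a b) := by
    have hby : b ∈ nb x a b := by
      rw [mem_nb]
      exact Or.inl rfl
    have hay : a ∈ D \ nb x a b := by
      rw [Finset.mem_sdiff, mem_nb]
      refine ⟨haD, ?_⟩
      rintro (h | ⟨h, _⟩)
      · exact hab h
      · exact h rfl
    have h := hmax (nb x a b) hy b hby a hay
    rw [nb_nb_cancel ha hbx] at h
    linarith
  have hmapx : nb x a b = x.map (Equiv.swap a b).toEmbedding := hsw.symm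
  have hmapD : D \ nb x a b = (D \ x).map (Equiv.swap a b).toEmbedding := by
    ext j
    rw [Finset.mem_sdiff, Finset.mem_map_equiv, Equiv.symm_swap, Finset.mem_sdiff, ← hsw,
      mem_swapSet, swap_mem_iff haD hbD]
  have hre : ∑ a' ∈ nb x a b, ∑ b' ∈ D \ nb x a b, (V (nb x a b) - V (nb (nb x a b) a' b'))
      = ∑ a' ∈ x, ∑ b' ∈ D \ x, (V (nb x a b) - V (swapSet a b (nb x a' b'))) := by
    have e1 : ∑ a' ∈ nb x a b, ∑ b' ∈ D \ nb x a b, (V (nb x a b) - V (nb (nb x a b) a' b'))
        = ∑ a' ∈ x.map (Equiv.swap a b).toEmbedding,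
            ∑ b' ∈ (D \ x).map (Equiv.swap a b).toEmbedding,
              (V (nb x a b) - V (nb (nb x a b) a' b')) := by
      rw [← hmapx, ← hmapD]
    rw [e1, Finset.sum_map]
    apply Finset.sum_congr rfl
    intro a' _
    rw [Finset.sum_map]
    apply Finset.sum_congr rfl
    intro b' _
    rw [swapSet_nb, hsw]
    rfl
  have hcount : ∑ a' ∈ x, ∑ b' ∈ D \ x, ((V x - V (nb x a b))
        * ((if a' = a then (1 : ℝ) else 0) + (if b' = b then 1 else 0)))
      = (D.card : ℝ) * (V x - V (nb x a b)) := by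
    have h1 : ∀ a' ∈ x, ∑ b' ∈ D \ x, ((V x - V (nb x a b))
          * ((if a' = a then (1 : ℝ) else 0) + (if b' = b then 1 else 0)))
        = (V x - V (nb x a b)) * (((D \ x).card : ℝ) * (if a' = a then 1 else 0) + 1) := by
      intro a' _
      rw [← Finset.mul_sum, Finset.sum_add_distrib, Finset.sum_const, nsmul_eq_mul,
        Finset.sum_ite_eq' (D \ x) b (fun _ => (1 : ℝ)), if_pos hb]
    rw [Finset.sum_congr rfl h1, ← Finset.mul_sum, Finset.sum_add_distrib, ← Finset.mul_sum,
      Finset.sum_ite_eq' x a (fun _ => (1 : ℝ)), if_pos ha, Finset.sum_const, nsmul_eq_mul,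
      mul_one, mul_one, ← Nat.cast_add, Finset.card_sdiff_add_card_eq_card hxD]
    ring
  rw [hre, ← Finset.sum_sub_distrib, ← hcount]
  apply Finset.sum_le_sum
  intro a' ha'
  rw [← Finset.sum_sub_distrib]
  apply Finset.sum_le_sum
  intro b' hb'
  have hb'x : b' ∉ x := (Finset.mem_sdiff.1 hb').2
  have hab' : a ≠ b' := fun h => hb'x (h ▸ ha)
  by_cases h1 : a' = a
  · by_cases h2 : b' = b
    · have e : swapSet a b (nb x a b) = x := by
        rw [← hsw, swapSet_swapSet]
      rw [h1, h2, e, if_pos rfl, if_pos rfl]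
      have e2 : (V x - V (nb x a b)) * (1 + 1)
          = V x - V (nb x a b) - (V (nb x a b) - V x) := by ring
      exact le_of_eq e2
    · have e : swapSet a b (nb x a b') = nb x a b' := by
        apply swapSet_fixed
        rw [mem_nb, mem_nb]
        constructor
        · rintro (h | ⟨h, _⟩)
          · exact absurd h hab'
          · exact absurd rfl h
        · rintro (h | ⟨_, h⟩)
          · exact absurd h.symm h2
          · exact absurd h hbx
      rw [h1, e, if_pos rfl, if_neg h2]
      have e2 : (V x - V (nb x a b)) * (1 + 0)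
          = V x - V (nb x a b') - (V (nb x a b) - V (nb x a b')) := by ring
      exact le_of_eq e2
  · have hau : a ∈ nb x a' b' := by
      rw [mem_nb]
      exact Or.inr ⟨fun h => h1 h.symm, ha⟩
    by_cases h2 : b' = b
    · have e : swapSet a b (nb x a' b) = nb x a' b := by
        apply swapSet_fixed
        rw [h2] at hau
        exact ⟨fun _ => by rw [mem_nb]; exact Or.inl rfl, fun _ => hau⟩
      rw [h2, e, if_neg h1, if_pos rfl]
      have e2 : (V x - V (nb x a b)) * (0 + 1)
          = V x - V (nb x a' b) - (V (nb x a b) - V (nb x a' b)) := by ring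
      exact le_of_eq e2
    · have hbu : b ∉ nb x a' b' := by
        rw [mem_nb]
        rintro (h | ⟨_, h⟩)
        · exact h2 h.symm
        · exact hbx h
      have e : swapSet a b (nb x a' b') = nb (nb x a' b') a b := swapSet_nb_self hau hbu
      have hu : nb x a' b' ∈ D.powersetCard p := nb_mem hx ha' hb'
      have h3 := hmax (nb x a' b') hu a hau b (Finset.mem_sdiff.2 ⟨hbD, hbu⟩)
      rw [e, if_neg h1, if_neg h2]
      linarith

/-- The states as a type. -/
abbrev JS (D : Finset α) (p : ℕ) : Type _ := {T : Finset α // T ∈ D.powersetCard p}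

/-- Indicator of adjacency. -/
noncomputable def adjR (D : Finset α) (p : ℕ) (x y : JS D p) : ℝ :=
  if (x.1 \ y.1).card = 1 then 1 else 0

theorem adj_symm_iff {D : Finset α} {p : ℕ} (x y : JS D p) :
    (x.1 \ y.1).card = 1 ↔ (y.1 \ x.1).card = 1 := by
  have h : (x.1 \ y.1).card = (y.1 \ x.1).card :=
    Finset.card_sdiff_comm (by
      rw [(Finset.mem_powersetCard.1 x.2).2, (Finset.mem_powersetCard.1 y.2).2])
  rw [h]

theorem adjR_symm (D : Finset α) (p : ℕ) (x y : JS D p) : adjR D p x y = adjR D p y x := by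
  unfold adjR
  by_cases h : (x.1 \ y.1).card = 1
  · rw [if_pos h, if_pos ((adj_symm_iff x y).1 h)]
  · rw [if_neg h, if_neg (fun h2 => h ((adj_symm_iff x y).2 h2))]

/-- The Laplacian matrix of the Johnson graph. -/
noncomputable def lapM (D : Finset α) (p : ℕ) : Matrix (JS D p) (JS D p) ℝ :=
  fun x y => (if x = y then ∑ z, adjR D p x z else 0) - adjR D p x y

theorem lapM_herm (D : Finset α) (p : ℕ) : (lapM D p).IsHermitian := by
  rw [Matrix.IsHermitian, Matrix.conjTranspose_eq_transpose_of_trivial]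
  ext x y
  rw [Matrix.transpose_apply]
  unfold lapM
  rw [adjR_symm D p y x]
  by_cases h : x = y
  · subst h
    rfl
  · rw [if_neg h, if_neg (Ne.symm h)]

theorem lapM_mulVec (D : Finset α) (p : ℕ) (v : JS D p → ℝ) (x : JS D p) :
    (lapM D p *ᵥ v) x = ∑ y, adjR D p x y * (v x - v y) := by
  have h1 : (lapM D p *ᵥ v) x
      = ∑ y, ((if x = y then ∑ z, adjR D p x z else 0) - adjR D p x y) * v y := rfl
  rw [h1]
  simp only [sub_mul, ite_mul, zero_mul, Finset.sum_sub_distrib, Finset.sum_ite_eq,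
    Finset.mem_univ, if_true, mul_sub, Finset.sum_mul]

/-- Extension of a function on the states by zero. -/
noncomputable def ext0 (D : Finset α) (p : ℕ) (v : JS D p → ℝ) : Finset α → ℝ :=
  fun T => if h : T ∈ D.powersetCard p then v ⟨T, h⟩ else 0

theorem ext0_mem {D : Finset α} {p : ℕ} (v : JS D p → ℝ) {T : Finset α}
    (h : T ∈ D.powersetCard p) : ext0 D p v T = v ⟨T, h⟩ := by
  unfold ext0
  rw [dif_pos h]

theorem ext0_val {D : Finset α} {p : ℕ} (v : JS D p → ℝ) (x : JS D p) :
    ext0 D p v x.1 = v x := ext0_mem v x.2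

theorem lap_apply (D : Finset α) (p : ℕ) (v : JS D p → ℝ) (x : JS D p) :
    (lapM D p *ᵥ v) x
      = ∑ a' ∈ x.1, ∑ b' ∈ D \ x.1, (ext0 D p v x.1 - ext0 D p v (nb x.1 a' b')) := by
  rw [lapM_mulVec, ← sum_adj_eq x.2 (fun T' => ext0 D p v x.1 - ext0 D p v T'),
    ← Finset.sum_coe_sort (D.powersetCard p)
      (fun T' => if (x.1 \ T').card = 1 then ext0 D p v x.1 - ext0 D p v T' else 0)]
  apply Finset.sum_congr rfl
  intro y _
  unfold adjR
  by_cases h : (x.1 \ y.1).card = 1
  · rw [if_pos h, if_pos h, one_mul, ext0_val, ext0_val]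
  · rw [if_neg h, if_neg h, zero_mul]

/-- An eigenvector with eigenvalue below `card D` takes equal values on adjacent states. -/
theorem eigen_adj (D : Finset α) (p : ℕ) (v : JS D p → ℝ) (μ : ℝ) (hμ : μ < (D.card : ℝ))
    (hv : lapM D p *ᵥ v = μ • v) (u w : JS D p) (huw : (u.1 \ w.1).card = 1) : v u = v w := by
  by_contra hne
  let P : Finset (JS D p × JS D p) := univ.filter (fun pr => (pr.1.1 \ pr.2.1).card = 1)
  have hPne : P.Nonempty := ⟨(u, w), by simp [P, huw]⟩
  obtain ⟨⟨x, y⟩, hxyP, hmaxP⟩ := Finset.exists_max_image P (fun pr => v pr.1 - v pr.2) hPne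
  have hxy : (x.1 \ y.1).card = 1 := by simpa [P] using hxyP
  have hmax : ∀ u' w' : JS D p, (u'.1 \ w'.1).card = 1 → v u' - v w' ≤ v x - v y :=
    fun u' w' h => hmaxP (u', w') (by simp [P, h])
  have hpos : 0 < v x - v y := by
    have h1 := hmax u w huw
    have h2 := hmax w u ((adj_symm_iff u w).1 huw)
    rcases lt_or_gt_of_ne hne with h | h
    · linarith
    · linarith
  obtain ⟨a, ha, b, hb, hyab⟩ := eq_nb_of_adj x.2 y.2 hxy
  have hVx : ext0 D p v x.1 = v x := ext0_val v x
  have hVy : ext0 D p v (nb x.1 a b) = v y := by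
    rw [← hyab]
    exact ext0_val v y
  have hc := curvature D p (ext0 D p v) x.2 ha hb (by
    intro T hT a' ha' b' hb'
    rw [hVx, hVy, ext0_mem v hT, ext0_mem v (nb_mem hT ha' hb')]
    apply hmax
    show (T \ nb T a' b').card = 1
    rw [sdiff_nb ha' (Finset.mem_sdiff.1 hb').2, Finset.card_singleton])
  have e1 := congrFun hv x
  have e2 := congrFun hv y
  rw [lap_apply] at e1 e2
  simp only [Pi.smul_apply, smul_eq_mul] at e1 e2
  rw [hyab] at e2
  rw [e1, e2, hVx, hVy] at hc
  nlinarith [mul_pos (sub_pos.2 hμ) hpos]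

/-- The Johnson graph is connected: a function that is constant along exchanges is constant. -/
theorem const_of_adj (D : Finset α) (p : ℕ) (V : Finset α → ℝ)
    (hadj : ∀ T ∈ D.powersetCard p, ∀ a ∈ T, ∀ b ∈ D \ T, V T = V (nb T a b)) :
    ∀ n : ℕ, ∀ T ∈ D.powersetCard p, ∀ T' ∈ D.powersetCard p, (T \ T').card = n →
      V T = V T' := by
  intro n
  induction n with
  | zero =>
    intro T hT T' hT' h
    have hsub : T ⊆ T' := by
      rw [← Finset.sdiff_eq_empty_iff_subset]
      exact Finset.card_eq_zero.1 h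
    have hcard : T'.card ≤ T.card := by
      rw [(Finset.mem_powersetCard.1 hT).2, (Finset.mem_powersetCard.1 hT').2]
    rw [Finset.eq_of_subset_of_card_le hsub hcard]
  | succ n ih =>
    intro T hT T' hT' h
    have h' : (T' \ T).card = n + 1 := by
      rw [← h]
      exact Finset.card_sdiff_comm (by
        rw [(Finset.mem_powersetCard.1 hT).2, (Finset.mem_powersetCard.1 hT').2])
    obtain ⟨a, ha⟩ := Finset.card_pos.1 (by omega : 0 < (T \ T').card)
    obtain ⟨b, hb⟩ := Finset.card_pos.1 (by omega : 0 < (T' \ T).card)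
    rw [Finset.mem_sdiff] at ha hb
    have hbD : b ∈ D \ T :=
      Finset.mem_sdiff.2 ⟨(Finset.mem_powersetCard.1 hT').1 hb.1, hb.2⟩
    have h1 : nb T a b ∈ D.powersetCard p := nb_mem hT ha.1 hbD
    have h2 : nb T a b \ T' = (T \ T').erase a := by
      ext j
      rw [Finset.mem_sdiff, mem_nb, Finset.mem_erase, Finset.mem_sdiff]
      constructor
      · rintro ⟨hj | ⟨hj1, hj2⟩, hj3⟩
        · exact absurd (hj ▸ hb.1) hj3
        · exact ⟨hj1, hj2, hj3⟩
      · rintro ⟨hj1, hj2, hj3⟩
        exact ⟨Or.inr ⟨hj1, hj2⟩, hj3⟩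
    have h3 : (nb T a b \ T').card = n := by
      rw [h2, Finset.card_erase_of_mem (Finset.mem_sdiff.2 ha), h]
      rfl
    rw [hadj T hT a ha.1 b hbD]
    exact ih (nb T a b) h1 T' hT' h3

theorem energy_quad (D : Finset α) (p : ℕ) (g : JS D p → ℝ) :
    ∑ x, ∑ y, adjR D p x y * (g x - g y) ^ 2
      = 2 * ∑ x, g x * ∑ y, adjR D p x y * (g x - g y) := by
  have h1 : ∑ x, ∑ y, adjR D p x y * (g y * (g y - g x))
      = ∑ x, ∑ y, adjR D p x y * (g x * (g x - g y)) := by
    rw [Finset.sum_comm]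
    apply Finset.sum_congr rfl
    intro x _
    apply Finset.sum_congr rfl
    intro y _
    rw [adjR_symm D p y x]
  have h2 : ∑ x, ∑ y, adjR D p x y * (g x - g y) ^ 2
      = ∑ x, ∑ y, adjR D p x y * (g x * (g x - g y))
        + ∑ x, ∑ y, adjR D p x y * (g y * (g y - g x)) := by
    rw [← Finset.sum_add_distrib]
    apply Finset.sum_congr rfl
    intro x _
    rw [← Finset.sum_add_distrib]
    apply Finset.sum_congr rfl
    intro y _
    ring
  have h3 : ∑ x, g x * ∑ y, adjR D p x y * (g x - g y)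
      = ∑ x, ∑ y, adjR D p x y * (g x * (g x - g y)) := by
    apply Finset.sum_congr rfl
    intro x _
    rw [Finset.mul_sum]
    apply Finset.sum_congr rfl
    intro y _
    ring
  rw [h2, h1, h3]
  ring

/-- The full spectral gap of the Johnson graph: for `h` of zero sum on the `p`-subsets of `D`,
`card D` times the sum of squares is at most the edge energy (here with ordered pairs, so with
the factor `2`). -/
theorem johnson_gap_full (D : Finset α) (p : ℕ) (h : Finset α → ℝ)
    (hsum : ∑ T ∈ D.powersetCard p, h T = 0) :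
    2 * (D.card : ℝ) * ∑ T ∈ D.powersetCard p, h T ^ 2
      ≤ ∑ T ∈ D.powersetCard p, ∑ T' ∈ D.powersetCard p,
          if (T \ T').card = 1 then (h T - h T') ^ 2 else 0 := by
  have key : (D.card : ℝ) * ((fun x : JS D p => h x.1) ⬝ᵥ (fun x : JS D p => h x.1))
      ≤ (fun x : JS D p => h x.1) ⬝ᵥ (lapM D p *ᵥ (fun x : JS D p => h x.1)) := by
    apply quad_ge_of_eigen (lapM D p) (lapM_herm D p) (D.card : ℝ) (fun x : JS D p => h x.1)
    intro μ v hμ hv
    have hadj : ∀ T ∈ D.powersetCard p, ∀ a ∈ T, ∀ b ∈ D \ T,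
        ext0 D p v T = ext0 D p v (nb T a b) := by
      intro T hT a ha b hb
      rw [ext0_mem v hT, ext0_mem v (nb_mem hT ha hb)]
      apply eigen_adj D p v μ hμ hv
      show (T \ nb T a b).card = 1
      rw [sdiff_nb ha (Finset.mem_sdiff.1 hb).2, Finset.card_singleton]
    have hconst : ∀ x y : JS D p, v x = v y := by
      intro x y
      have h1 := const_of_adj D p (ext0 D p v) hadj _ x.1 x.2 y.1 y.2 rfl
      rw [ext0_val, ext0_val] at h1
      exact h1
    by_cases hne : Nonempty (JS D p)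
    · obtain ⟨x0⟩ := hne
      have h1 : v ⬝ᵥ (fun x : JS D p => h x.1) = v x0 * ∑ x : JS D p, h x.1 := by
        rw [dotProduct, Finset.mul_sum]
        apply Finset.sum_congr rfl
        intro x _
        rw [hconst x x0]
      rw [h1, Finset.sum_coe_sort (D.powersetCard p) h, hsum, mul_zero]
    · rw [not_nonempty_iff] at hne
      simp [dotProduct]
  have hgg : (fun x : JS D p => h x.1) ⬝ᵥ (fun x : JS D p => h x.1)
      = ∑ T ∈ D.powersetCard p, h T ^ 2 := by
    rw [← Finset.sum_coe_sort (D.powersetCard p) (fun T => h T ^ 2), dotProduct]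
    apply Finset.sum_congr rfl
    intro x _
    ring
  have hE : ∑ T ∈ D.powersetCard p, ∑ T' ∈ D.powersetCard p,
        (if (T \ T').card = 1 then (h T - h T') ^ 2 else 0)
      = 2 * ((fun x : JS D p => h x.1) ⬝ᵥ (lapM D p *ᵥ (fun x : JS D p => h x.1))) := by
    have h1 : (fun x : JS D p => h x.1) ⬝ᵥ (lapM D p *ᵥ (fun x : JS D p => h x.1))
        = ∑ x : JS D p, h x.1 * ∑ y : JS D p, adjR D p x y * (h x.1 - h y.1) := by
      rw [dotProduct]
      apply Finset.sum_congr rfl
      intro x _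
      rw [lapM_mulVec]
    rw [h1, ← energy_quad D p (fun x : JS D p => h x.1),
      ← Finset.sum_coe_sort (D.powersetCard p)
        (fun T => ∑ T' ∈ D.powersetCard p, if (T \ T').card = 1 then (h T - h T') ^ 2 else 0)]
    apply Finset.sum_congr rfl
    intro x _
    rw [← Finset.sum_coe_sort (D.powersetCard p)
      (fun T' => if (x.1 \ T').card = 1 then (h x.1 - h T') ^ 2 else 0)]
    apply Finset.sum_congr rfl
    intro y _
    unfold adjR
    by_cases hxy : (x.1 \ y.1).card = 1
    · rw [if_pos hxy, if_pos hxy, one_mul]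
    · rw [if_neg hxy, if_neg hxy, zero_mul]
  rw [hgg] at key
  rw [hE]
  linarith

/-- The energy in parametrised form: sum over the exchanged pairs. -/
theorem energy_param (D : Finset α) (p : ℕ) (h : Finset α → ℝ) :
    ∑ T ∈ D.powersetCard p, ∑ T' ∈ D.powersetCard p,
        (if (T \ T').card = 1 then (h T - h T') ^ 2 else 0)
      = ∑ T ∈ D.powersetCard p, ∑ a ∈ T, ∑ b ∈ D \ T, (h T - h (nb T a b)) ^ 2 := by
  apply Finset.sum_congr rfl
  intro T hT
  exact sum_adj_eq hT (fun T' => (h T - h T') ^ 2)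

/-- Inequality (J2), given the Gram bound for the separating sums. -/
theorem J2_of_gram (D : Finset α) (p : ℕ) (h : Finset α → ℝ)
    (hsum : ∑ T ∈ D.powersetCard p, h T = 0)
    (hgram : ∑ c ∈ D.powersetCard 2,
        (∑ T ∈ (D.powersetCard p).filter (fun T => (T ∩ c).card = 1), h T) ^ 2
      ≤ ((D.card : ℝ) - 2) * ((D.card - 2).choose (p - 1) : ℝ)
          * ∑ T ∈ D.powersetCard p, h T ^ 2) :
    ∑ c ∈ D.powersetCard 2,
        (∑ T ∈ (D.powersetCard p).filter (fun T => (T ∩ c).card = 1), h T) ^ 2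
      ≤ ((D.card - 2).choose (p - 1) : ℝ)
          * ((1 / 2) * (∑ T ∈ D.powersetCard p, ∑ T' ∈ D.powersetCard p,
                if (T \ T').card = 1 then (h T - h T') ^ 2 else 0)
              - 2 * ∑ T ∈ D.powersetCard p, h T ^ 2) := by
  have hgap := johnson_gap_full D p h hsum
  have hn : (0 : ℝ) ≤ ((D.card - 2).choose (p - 1) : ℝ) := Nat.cast_nonneg _
  have h1 : ((D.card : ℝ) - 2) * ∑ T ∈ D.powersetCard p, h T ^ 2
      ≤ (1 / 2) * (∑ T ∈ D.powersetCard p, ∑ T' ∈ D.powersetCard p,
            if (T \ T').card = 1 then (h T - h T') ^ 2 else 0)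
          - 2 * ∑ T ∈ D.powersetCard p, h T ^ 2 := by
    linarith
  have h2 := mul_le_mul_of_nonneg_left h1 hn
  calc ∑ c ∈ D.powersetCard 2,
        (∑ T ∈ (D.powersetCard p).filter (fun T => (T ∩ c).card = 1), h T) ^ 2
      ≤ ((D.card : ℝ) - 2) * ((D.card - 2).choose (p - 1) : ℝ)
          * ∑ T ∈ D.powersetCard p, h T ^ 2 := hgram
    _ = ((D.card - 2).choose (p - 1) : ℝ)
          * (((D.card : ℝ) - 2) * ∑ T ∈ D.powersetCard p, h T ^ 2) := by ring
    _ ≤ _ := h2

end Johnson

end Vale.Agent.Lib.P335.H3
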